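import Vale.Agent.Lib.P111.Final

namespace Vale.Agent.Results.P111.L2SumCounterexample

open Vale.Agent.Lib.P111
open scoped ENNReal

universe u

/-- Counterexample criterion for the cotype-cotype conjecture.  Let `E n` be finite-dimensional
real normed spaces such that the cotype-`q` constants of the `E n` and the cotype-`r` constants
of their duals are at most `C`, while the `K`-convexity constants of the `E n` are unbounded.
Then the `ℓ_2`-sum `lp E 2` has the bounded approximation property, has cotype-`q` constant at
most `C`, its dual has cotype-`r` constant at most `C`, and it is not `K`-convex. -/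
theorem result (E : ℕ → Type u) [∀ n, NormedAddCommGroup (E n)] [∀ n, NormedSpace ℝ (E n)]
    [∀ n, FiniteDimensional ℝ (E n)] (q r C : ℝ) (hq : 2 ≤ q) (hr : 2 ≤ r)
    (hE : ∀ n, CotypeLe (E n) q C) (hE' : ∀ n, CotypeLe (StrongDual ℝ (E n)) r C)
    (hK : ∀ K : ℝ, ∃ n, ¬ KConvexLe (E n) K) :
    HasBAP (lp E 2) ∧ CotypeLe (lp E 2) q C ∧
      CotypeLe (StrongDual ℝ (lp E 2)) r C ∧ ¬ ∃ K : ℝ, KConvexLe (lp E 2) K :=
  l2sum_counterexample' E hq hr hE hE' hK

end Vale.Agent.Results.P111.L2SumCounterexample
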