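import Vale.Agent.Lib.P111.PiEquiv

namespace Vale.Agent.Results.P111.PiPropertyEquivalence

open Vale.Agent.Lib.P111

universe u

/-- For Banach spaces with the `π`-property (the bounded approximation property realized by
finite-rank projections, e.g. spaces with a finite-dimensional decomposition), the
cotype-cotype statement is equivalent to a uniform finite-dimensional statement: for all
`q, r ≥ 2` and `C` there is `K` bounding the `K`-convexity constant of every
finite-dimensional normed space `F` with `C_q(F) ≤ C` and `C_r(F*) ≤ C`. -/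
theorem result :
    (∀ (X : Type u) [NormedAddCommGroup X] [NormedSpace ℝ X] [CompleteSpace X],
      HasPiProperty X → (∃ q C : ℝ, 2 ≤ q ∧ CotypeLe X q C) →
      (∃ r C : ℝ, 2 ≤ r ∧ CotypeLe (StrongDual ℝ X) r C) → ∃ K : ℝ, KConvexLe X K) ↔
    (∀ q r C : ℝ, 2 ≤ q → 2 ≤ r → ∃ K : ℝ,
      ∀ (F : Type u) [NormedAddCommGroup F] [NormedSpace ℝ F] [FiniteDimensional ℝ F],
        CotypeLe F q C → CotypeLe (StrongDual ℝ F) r C → KConvexLe F K) :=
  pi_equivalence

end Vale.Agent.Results.P111.PiPropertyEquivalence
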