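import Vale.Agent.Lib.P111.Final
import Vale.Agent.Lib.P111.PiEquiv

namespace Vale.Agent.Results.P111.ReductionOmnibus

open Vale.Agent.Lib.P111
open scoped ENNReal

universe u

/-- Three reductions of the cotype-cotype conjecture, in one statement.

(A) Counterexample criterion: if `E n` are finite-dimensional real normed spaces with cotype-`q`
constants and dual cotype-`r` constants at most `C` and unbounded `K`-convexity constants, then
the `ℓ_2`-sum `lp E 2` has the bounded approximation property, cotype-`q` constant at most `C`,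
dual cotype-`r` constant at most `C`, and is not `K`-convex.

(B) For Banach spaces with the `π`-property the cotype-cotype statement is equivalent to the
uniform finite-dimensional statement: for all `q, r ≥ 2` and `C` there is `K` bounding the
`K`-convexity constant of every finite-dimensional `F` with `C_q(F) ≤ C` and `C_r(F*) ≤ C`.

(C) The cotype-cotype conjecture itself (for spaces with the bounded approximation property)
implies that uniform finite-dimensional statement. -/
theorem result :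
    (∀ (E : ℕ → Type u) [∀ n, NormedAddCommGroup (E n)] [∀ n, NormedSpace ℝ (E n)]
      [∀ n, FiniteDimensional ℝ (E n)] (q r C : ℝ), 2 ≤ q → 2 ≤ r →
      (∀ n, CotypeLe (E n) q C) → (∀ n, CotypeLe (StrongDual ℝ (E n)) r C) →
      (∀ K : ℝ, ∃ n, ¬ KConvexLe (E n) K) →
      HasBAP (lp E 2) ∧ CotypeLe (lp E 2) q C ∧
        CotypeLe (StrongDual ℝ (lp E 2)) r C ∧ ¬ ∃ K : ℝ, KConvexLe (lp E 2) K) ∧
    ((∀ (X : Type u) [NormedAddCommGroup X] [NormedSpace ℝ X] [CompleteSpace X],
      HasPiProperty X → (∃ q C : ℝ, 2 ≤ q ∧ CotypeLe X q C) →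
      (∃ r C : ℝ, 2 ≤ r ∧ CotypeLe (StrongDual ℝ X) r C) → ∃ K : ℝ, KConvexLe X K) ↔
    (∀ q r C : ℝ, 2 ≤ q → 2 ≤ r → ∃ K : ℝ,
      ∀ (F : Type u) [NormedAddCommGroup F] [NormedSpace ℝ F] [FiniteDimensional ℝ F],
        CotypeLe F q C → CotypeLe (StrongDual ℝ F) r C → KConvexLe F K)) ∧
    ((∀ (X : Type u) [NormedAddCommGroup X] [NormedSpace ℝ X] [CompleteSpace X],
      HasBAP X → (∃ q C : ℝ, 2 ≤ q ∧ CotypeLe X q C) →
      (∃ r C : ℝ, 2 ≤ r ∧ CotypeLe (StrongDual ℝ X) r C) → ∃ K : ℝ, KConvexLe X K) →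
    ∀ q r C : ℝ, 2 ≤ q → 2 ≤ r → ∃ K : ℝ,
      ∀ (F : Type u) [NormedAddCommGroup F] [NormedSpace ℝ F] [FiniteDimensional ℝ F],
        CotypeLe F q C → CotypeLe (StrongDual ℝ F) r C → KConvexLe F K) :=
  ⟨fun E _ _ _ _ _ _ hq hr hE hE' hK => l2sum_counterexample' E hq hr hE hE' hK,
    pi_equivalence, fun hconj => uniformity hconj⟩

end Vale.Agent.Results.P111.ReductionOmnibus
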