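import Vale.Agent.Lib.P111.Final

namespace Vale.Agent.Results.P111.UniformityPrinciple

open Vale.Agent.Lib.P111

universe u

/-- If the cotype-cotype conjecture holds (every real Banach space with the bounded
approximation property such that the space and its dual have finite cotype is `K`-convex), then
`K`-convexity constants of finite-dimensional spaces are bounded in terms of cotype constants:
for all `q, r ≥ 2` and `C` there is `K` such that every finite-dimensional normed space `F`
whose cotype-`q` constant and whose dual's cotype-`r` constant are at most `C` has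
`K`-convexity constant at most `K`. -/
theorem result
    (hconj : ∀ (X : Type u) [NormedAddCommGroup X] [NormedSpace ℝ X] [CompleteSpace X],
      HasBAP X → (∃ q C : ℝ, 2 ≤ q ∧ CotypeLe X q C) →
      (∃ r C : ℝ, 2 ≤ r ∧ CotypeLe (StrongDual ℝ X) r C) → ∃ K : ℝ, KConvexLe X K) :
    ∀ q r C : ℝ, 2 ≤ q → 2 ≤ r → ∃ K : ℝ,
      ∀ (F : Type u) [NormedAddCommGroup F] [NormedSpace ℝ F] [FiniteDimensional ℝ F],
        CotypeLe F q C → CotypeLe (StrongDual ℝ F) r C → KConvexLe F K :=
  uniformity hconj

end Vale.Agent.Results.P111.UniformityPrinciple
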